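import Crest.Agent.Helper96.S0151.Defs
import Crest.Agent.Helper89.S0151.Rot
import Crest.Agent.Helper23.S0151.CovAlg
import Crest.Agent.Helper22.S0151.Adj
import Crest.Agent.Helper95.S0151.Tau
import Crest.Agent.Helper24.S0151.TShift

/-!
# S0151 — leaf C7 (Trace), `tau_comm` (helper5, written as the second of helper24)

The vacuum state is a trace on the `*`-algebra generated by `T`: every element of
`StarAlgebra.adjoin ℂ {T}` lies in the linear span of the covariant shifts with bounded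
measurable multipliers, and `tau (W₁ W₂) = tau (W₂ W₁)` for two such shifts.
-/

set_option autoImplicit false

open MeasureTheory Crest.AnalysisR.ProductShift
open scoped ENNReal ComplexConjugate Pointwise

namespace Crest.Agent.Helper5.S0151

open Crest.Agent.Helper96.S0151

/-- The covariant shifts with bounded measurable multipliers. -/
def covSet (θ : ℕ → ℝ) : Set (pairSpace →L[ℂ] pairSpace) :=
  {W | ∃ (m : (ℕ → ℝ) → ℂ) (d : ℤ), BM m ∧ IsCov θ m d W}

theorem tau_add (P Q : pairSpace →L[ℂ] pairSpace) : tau (P + Q) = tau P + tau Q := by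
  unfold tau
  have h : (P + Q) vacuumVector = P vacuumVector + Q vacuumVector := rfl
  rw [h, inner_add_right]

theorem tau_smul (a : ℂ) (P : pairSpace →L[ℂ] pairSpace) : tau (a • P) = a * tau P := by
  unfold tau
  have h : (a • P) vacuumVector = a • P vacuumVector := rfl
  rw [h, inner_smul_right]

theorem tau_zero : tau (0 : pairSpace →L[ℂ] pairSpace) = 0 := by
  unfold tau; simp

theorem bm_mul_comp (θ : ℕ → ℝ) {m₁ m₂ : (ℕ → ℝ) → ℂ} (h₁ : BM m₁) (h₂ : BM m₂) (k : ℤ) :
    BM (fun y => m₁ y * m₂ (orbitPoint θ k y)) := by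
  obtain ⟨hm1, C1, hC1⟩ := h₁
  obtain ⟨hm2, C2, hC2⟩ := h₂
  refine ⟨hm1.mul (hm2.comp (Helper89.S0151.measurable_orbitPoint θ k)), C1 * C2, fun y => ?_⟩
  rw [norm_mul]
  exact mul_le_mul (hC1 y) (hC2 _) (norm_nonneg _) ((norm_nonneg _).trans (hC1 y))

theorem bm_conj_comp (θ : ℕ → ℝ) {m : (ℕ → ℝ) → ℂ} (h : BM m) (k : ℤ) :
    BM (fun y => conj (m (orbitPoint θ k y))) := by
  obtain ⟨hm, C, hC⟩ := h
  refine ⟨Complex.continuous_conj.measurable.comp
    (hm.comp (Helper89.S0151.measurable_orbitPoint θ k)), C, fun y => ?_⟩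
  rw [RCLike.norm_conj]
  exact hC _

/-- change of variables along a rotation step. -/
theorem integral_comp_orbitPoint (θ : ℕ → ℝ) (k : ℤ) {f : (ℕ → ℝ) → ℂ} (hf : Measurable f) :
    ∫ y, f (orbitPoint θ k y) ∂cubeMeasure = ∫ y, f y ∂cubeMeasure := by
  have mp := Helper89.S0151.measurePreserving_orbitPoint θ k
  have h := integral_map (μ := cubeMeasure) mp.measurable.aemeasurable (f := f)
    hf.aestronglyMeasurable
  rw [mp.map_eq] at h
  exact h.symm

/-- the trace property for two covariant shifts. -/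
theorem tau_mul_comm_cov {θ : ℕ → ℝ} {m₁ m₂ : (ℕ → ℝ) → ℂ} {d₁ d₂ : ℤ}
    {W₁ W₂ : pairSpace →L[ℂ] pairSpace} (h₁ : IsCov θ m₁ d₁ W₁) (hm₁ : BM m₁)
    (h₂ : IsCov θ m₂ d₂ W₂) (hm₂ : BM m₂) :
    tau (W₁ * W₂) = tau (W₂ * W₁) := by
  have e1 := Helper95.S0151.IsCov.tau_eq (Helper23.S0151.IsCov.mul h₁ h₂)
    (bm_mul_comp θ hm₁ hm₂ (-d₁))
  have e2 := Helper95.S0151.IsCov.tau_eq (Helper23.S0151.IsCov.mul h₂ h₁)
    (bm_mul_comp θ hm₂ hm₁ (-d₂))
  rw [e1, e2]
  by_cases hd : d₁ + d₂ = 0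
  · have hd' : d₂ + d₁ = 0 := by omega
    rw [if_pos hd, if_pos hd']
    have hd2 : d₂ = -d₁ := by omega
    subst hd2
    have hA : ∫ y, m₁ y * m₂ (orbitPoint θ (-d₁) y) ∂cubeMeasure
        = ∫ y, m₁ (orbitPoint θ 0 y) * m₂ (orbitPoint θ (-d₁) y) ∂cubeMeasure := by
      rw [← integral_comp_orbitPoint θ 0 (bm_mul_comp θ hm₁ hm₂ (-d₁)).1]
      refine integral_congr_ae (Filter.Eventually.of_forall fun y => ?_)
      simp only [Helper89.S0151.orbitPoint_orbitPoint, add_zero]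
    have hB : ∫ y, m₂ y * m₁ (orbitPoint θ (- -d₁) y) ∂cubeMeasure
        = ∫ y, m₂ (orbitPoint θ (-d₁) y) * m₁ (orbitPoint θ 0 y) ∂cubeMeasure := by
      rw [← integral_comp_orbitPoint θ (-d₁) (bm_mul_comp θ hm₂ hm₁ (- -d₁)).1]
      refine integral_congr_ae (Filter.Eventually.of_forall fun y => ?_)
      simp only [Helper89.S0151.orbitPoint_orbitPoint, neg_neg, add_neg_cancel]
    rw [hA, hB]
    refine integral_congr_ae (Filter.Eventually.of_forall fun y => ?_)
    exact mul_comm _ _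
  · have hd' : ¬ d₂ + d₁ = 0 := by omega
    rw [if_neg hd, if_neg hd']

theorem covSet_mul_subset (θ : ℕ → ℝ) : covSet θ * covSet θ ⊆ covSet θ := by
  rintro _ ⟨W₁, ⟨m₁, d₁, hm₁, h₁⟩, W₂, ⟨m₂, d₂, hm₂, h₂⟩, rfl⟩
  exact ⟨_, _, bm_mul_comp θ hm₁ hm₂ (-d₁), Helper23.S0151.IsCov.mul h₁ h₂⟩

theorem star_mem_span (θ : ℕ → ℝ) {P : pairSpace →L[ℂ] pairSpace}
    (hP : P ∈ Submodule.span ℂ (covSet θ)) : star P ∈ Submodule.span ℂ (covSet θ) := by
  induction hP using Submodule.span_induction with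
  | mem x hx =>
    obtain ⟨m, d, hm, h⟩ := hx
    rw [ContinuousLinearMap.star_eq_adjoint]
    exact Submodule.subset_span ⟨_, _, bm_conj_comp θ hm d, Helper22.S0151.IsCov.adjoint h hm⟩
  | zero => simp
  | add x y _ _ hx hy => rw [star_add]; exact Submodule.add_mem _ hx hy
  | smul a x _ hx => rw [star_smul]; exact Submodule.smul_mem _ _ hx

/-- every element of the `*`-algebra generated by `T` is a finite sum of covariant shifts with
bounded measurable multipliers. -/
theorem adjoin_le_span (θ c : ℕ → ℝ) (T : pairSpace →L[ℂ] pairSpace)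
    (hT : IsWeightedShift θ c T) (P : pairSpace →L[ℂ] pairSpace)
    (hP : P ∈ StarAlgebra.adjoin ℂ {T}) : P ∈ Submodule.span ℂ (covSet θ) := by
  induction hP using StarAlgebra.adjoin_induction with
  | mem x hx =>
    rw [Set.mem_singleton_iff] at hx
    subst hx
    exact Submodule.subset_span
      ⟨wmul θ c, 1, Helper24.S0151.bm_wmul θ c, Helper24.S0151.isCov_T θ c x hT⟩
  | algebraMap r =>
    rw [Algebra.algebraMap_eq_smul_one]
    refine Submodule.smul_mem _ _ (Submodule.subset_span ?_)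
    exact ⟨fun _ => 1, 0, ⟨measurable_const, 1, fun _ => by simp⟩, Helper23.S0151.isCov_one θ⟩
  | add x y _ _ hx hy => exact Submodule.add_mem _ hx hy
  | mul x y _ _ hx hy =>
    have h := Submodule.mul_mem_mul hx hy
    rw [Submodule.span_mul_span] at h
    exact Submodule.span_mono (covSet_mul_subset θ) h
  | star x _ hx => exact star_mem_span θ hx

theorem tau_comm_span (θ : ℕ → ℝ) {P Q : pairSpace →L[ℂ] pairSpace}
    (hP : P ∈ Submodule.span ℂ (covSet θ)) (hQ : Q ∈ Submodule.span ℂ (covSet θ)) :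
    tau (P * Q) = tau (Q * P) := by
  induction hP using Submodule.span_induction with
  | mem W₁ hW₁ =>
    obtain ⟨m₁, d₁, hm₁, h₁⟩ := hW₁
    induction hQ using Submodule.span_induction with
    | mem W₂ hW₂ =>
      obtain ⟨m₂, d₂, hm₂, h₂⟩ := hW₂
      exact tau_mul_comm_cov h₁ hm₁ h₂ hm₂
    | zero => simp [tau_zero]
    | add x y _ _ hx hy => rw [mul_add, add_mul, tau_add, tau_add, hx, hy]
    | smul a x _ hx => rw [mul_smul_comm, smul_mul_assoc, tau_smul, tau_smul, hx]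
  | zero => simp [tau_zero]
  | add x y _ _ hx hy => rw [add_mul, mul_add, tau_add, tau_add, hx, hy]
  | smul a x _ hx => rw [smul_mul_assoc, mul_smul_comm, tau_smul, tau_smul, hx]

/-- Leaf C7: the vacuum state is a trace on the `*`-algebra generated by `T`. -/
theorem tau_comm (θ c : ℕ → ℝ) (T : pairSpace →L[ℂ] pairSpace) (hT : IsWeightedShift θ c T)
    (P : pairSpace →L[ℂ] pairSpace) (hP : P ∈ StarAlgebra.adjoin ℂ {T})
    (Q : pairSpace →L[ℂ] pairSpace) (hQ : Q ∈ StarAlgebra.adjoin ℂ {T}) :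
    tau (P * Q) = tau (Q * P) :=
  tau_comm_span θ (adjoin_le_span θ c T hT P hP) (adjoin_le_span θ c T hT Q hQ)

end Crest.Agent.Helper5.S0151
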