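import Crest.Agent.Helper96.S0151.Defs

/-!
# S0151 — leaf C6a (Weight): the weight along an orbit (helper5)

`measurable_weight`, `weight_nonneg`, `weight_le_one`, `weight_prod_le` with the names and
signatures of `Crest.Agent.Helper96.S0151.Blueprint`.
-/

set_option autoImplicit false

open MeasureTheory Crest.AnalysisR.ProductShift
open scoped ENNReal ComplexConjugate

namespace Crest.Agent.Helper5.S0151

open Crest.Agent.Helper96.S0151

theorem measurable_dropCost (θ c : ℕ → ℝ) : Measurable (dropCost θ c) := by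
  unfold dropCost
  refine Measurable.tsum fun i => ?_
  refine ENNReal.measurable_ofReal.comp ?_
  refine Measurable.const_mul ?_ _
  have h1 : Measurable fun x : ℕ → ℝ => x i + θ i := (measurable_pi_apply i).add_const _
  have h2 : Measurable fun x : ℕ → ℝ => ⌊x i + θ i⌋ := Int.measurable_floor.comp h1
  exact (measurable_from_top (f := fun z : ℤ => (z : ℝ))).comp h2

theorem measurable_weight (θ c : ℕ → ℝ) : Measurable (weight θ c) := by
  unfold weight
  have hd := measurable_dropCost θ c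
  refine Measurable.ite (hd (measurableSet_singleton ⊤)) measurable_const ?_
  exact Real.measurable_exp.comp (ENNReal.measurable_toReal.comp hd).neg

theorem weight_nonneg (θ c : ℕ → ℝ) (x : ℕ → ℝ) : 0 ≤ weight θ c x := by
  unfold weight
  split_ifs
  · exact le_rfl
  · exact (Real.exp_pos _).le

theorem weight_le_one (θ c : ℕ → ℝ) (x : ℕ → ℝ) : weight θ c x ≤ 1 := by
  unfold weight
  split_ifs
  · exact zero_le_one
  · rw [Real.exp_le_one_iff]
    have := ENNReal.toReal_nonneg (a := dropCost θ c x)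
    linarith

/-- the weight is at most the exponential of minus any nonnegative partial sum of the drop. -/
theorem weight_le_exp_partial (θ c : ℕ → ℝ) (N : ℕ) (x : ℕ → ℝ)
    (h0 : ∀ i ∈ Finset.range N, 0 ≤ c i * (⌊x i + θ i⌋ : ℝ)) :
    weight θ c x ≤ Real.exp (- ∑ i ∈ Finset.range N, c i * (⌊x i + θ i⌋ : ℝ)) := by
  unfold weight
  split_ifs with htop
  · exact (Real.exp_pos _).le
  · rw [Real.exp_le_exp, neg_le_neg_iff]
    have h1 : ∑ i ∈ Finset.range N, ENNReal.ofReal (c i * (⌊x i + θ i⌋ : ℝ)) ≤ dropCost θ c x :=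
      ENNReal.sum_le_tsum _
    have h2 := ENNReal.toReal_mono htop h1
    rw [ENNReal.toReal_sum (fun i _ => ENNReal.ofReal_ne_top)] at h2
    calc ∑ i ∈ Finset.range N, c i * (⌊x i + θ i⌋ : ℝ)
        = ∑ i ∈ Finset.range N, (ENNReal.ofReal (c i * (⌊x i + θ i⌋ : ℝ))).toReal :=
          Finset.sum_congr rfl fun i hi => (ENNReal.toReal_ofReal (h0 i hi)).symm
      _ ≤ _ := h2

/-- `⌊fract u + t⌋ = ⌊u + t⌋ - ⌊u⌋`. -/
theorem floor_fract_add (u t : ℝ) : ⌊Int.fract u + t⌋ = ⌊u + t⌋ - ⌊u⌋ := by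
  have : Int.fract u + t = (u + t) - (⌊u⌋ : ℝ) := by
    unfold Int.fract; ring
  rw [this, Int.floor_sub_intCast]

/-- the floor along one step of the backward orbit, as a difference. -/
theorem floor_orbit_step (θ : ℕ → ℝ) (y : ℕ → ℝ) (i j : ℕ) :
    ⌊orbitPoint θ (-1 - (j : ℤ)) y i + θ i⌋
      = ⌊y i - (j : ℝ) * θ i⌋ - ⌊y i - ((j : ℝ) + 1) * θ i⌋ := by
  unfold orbitPoint
  rw [floor_fract_add]
  have h1 : y i + ((-1 - (j : ℤ) : ℤ) : ℝ) * θ i + θ i = y i - (j : ℝ) * θ i := by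
    push_cast; ring
  have h2 : y i + ((-1 - (j : ℤ) : ℤ) : ℝ) * θ i = y i - ((j : ℝ) + 1) * θ i := by
    push_cast; ring
  rw [h1, h2]

/-- telescoping of the floors along `n` steps of the backward orbit. -/
theorem sum_floor_orbit (θ : ℕ → ℝ) (y : ℕ → ℝ) (i n : ℕ) :
    ∑ j ∈ Finset.range n, ⌊orbitPoint θ (-1 - (j : ℤ)) y i + θ i⌋
      = ⌊y i⌋ - ⌊y i - (n : ℝ) * θ i⌋ := by
  induction n with
  | zero => simp
  | succ n ih =>
    rw [Finset.sum_range_succ, ih, floor_orbit_step]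
    push_cast
    ring

/-- telescoping: `⌊fract u + t⌋ = ⌊u + t⌋ - ⌊u⌋`, so `n` consecutive weights along an orbit
multiply to at most `exp (- ∑_{i<N} c_i ⌊n θ_i⌋)`, for EVERY point `y`. -/
theorem weight_prod_le (θ c : ℕ → ℝ) (hθ : ∀ i, 0 < θ i ∧ θ i < 1) (hc : ∀ i, 0 ≤ c i)
    (N n : ℕ) (y : ℕ → ℝ) :
    ∏ j ∈ Finset.range n, weight θ c (orbitPoint θ (-1 - (j : ℤ)) y)
      ≤ Real.exp (- dropSum θ c N n) := by
  -- each floor along the orbit is nonnegative
  have hfl : ∀ (i j : ℕ), (0 : ℤ) ≤ ⌊orbitPoint θ (-1 - (j : ℤ)) y i + θ i⌋ := by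
    intro i j
    apply Int.floor_nonneg.2
    have : 0 ≤ orbitPoint θ (-1 - (j : ℤ)) y i := by
      unfold orbitPoint; exact Int.fract_nonneg _
    linarith [(hθ i).1]
  -- bound each weight
  have hstep : ∀ j ∈ Finset.range n, weight θ c (orbitPoint θ (-1 - (j : ℤ)) y)
      ≤ Real.exp (- ∑ i ∈ Finset.range N,
          c i * (⌊orbitPoint θ (-1 - (j : ℤ)) y i + θ i⌋ : ℝ)) := by
    intro j _
    apply weight_le_exp_partial
    intro i _
    exact mul_nonneg (hc i) (by exact_mod_cast hfl i j)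
  refine (Finset.prod_le_prod (fun j _ => weight_nonneg θ c _) hstep).trans ?_
  rw [← Real.exp_sum, Real.exp_le_exp, Finset.sum_neg_distrib, neg_le_neg_iff, Finset.sum_comm]
  unfold dropSum
  refine Finset.sum_le_sum fun i _ => ?_
  rw [← Finset.mul_sum]
  refine mul_le_mul_of_nonneg_left ?_ (hc i)
  have h1 : ∑ j ∈ Finset.range n, (⌊orbitPoint θ (-1 - (j : ℤ)) y i + θ i⌋ : ℝ)
      = ((⌊y i⌋ - ⌊y i - (n : ℝ) * θ i⌋ : ℤ) : ℝ) := by
    rw [← sum_floor_orbit θ y i n]; push_cast; rfl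
  rw [h1]
  have h2 : ⌊y i - (n : ℝ) * θ i⌋ + ⌊(n : ℝ) * θ i⌋ ≤ ⌊y i⌋ := by
    have := Int.le_floor_add (y i - (n : ℝ) * θ i) ((n : ℝ) * θ i)
    simpa using this
  have h3 : ⌊(n : ℝ) * θ i⌋ ≤ ⌊y i⌋ - ⌊y i - (n : ℝ) * θ i⌋ := by linarith
  exact_mod_cast h3

end Crest.Agent.Helper5.S0151
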